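import Mathlib

open Metric Set

namespace Vale.Agent.Results.P208.A_finite_uniform

/-- The separable Hilbert space `ℓ₂`. -/
abbrev Ell2 := lp (fun _ : ℕ => ℝ) 2

/-- `X` is doubling with constant at most `L`: each ball of `X` (centre in `X`) is covered by at most
`L` balls of half the radius with centres in `X`. -/
def DoublingWith {E : Type*} [PseudoMetricSpace E] (X : Set E) (L : ℕ) : Prop :=
  ∀ x ∈ X, ∀ r : ℝ, 0 < r → ∃ C : Finset E, (C : Set E) ⊆ X ∧ C.card ≤ L ∧
    X ∩ closedBall x r ⊆ ⋃ c ∈ C, closedBall c (r / 2)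

/-- `X` has a bi-Lipschitz embedding into `ℝ^k` with distortion at most `D`. -/
def EmbedsWith {E : Type*} [PseudoMetricSpace E] (X : Set E) (k : ℕ) (D : ℝ) : Prop :=
  ∃ (a : ℝ) (f : E → EuclideanSpace ℝ (Fin k)), 0 < a ∧ ∀ x ∈ X, ∀ y ∈ X,
    a * dist x y ≤ dist (f x) (f y) ∧ dist (f x) (f y) ≤ D * a * dist x y

section Finite

variable {E : Type*} [MetricSpace E]

/-- A subset of an `L`-doubling set is `L²`-doubling. -/
lemma DoublingWith.subset {X Y : Set E} {L : ℕ} (h : DoublingWith X L) (hY : Y ⊆ X) :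
    DoublingWith Y (L * L) := by
  classical
  intro y hy r hr
  obtain ⟨C, hCX, hCc, hC⟩ := h y (hY hy) r hr
  -- second level covering
  have h2 : ∀ c ∈ C, ∃ C' : Finset E, (C' : Set E) ⊆ X ∧ C'.card ≤ L ∧
      X ∩ closedBall c (r / 2) ⊆ ⋃ c' ∈ C', closedBall c' (r / 2 / 2) := by
    intro c hc
    exact h c (hCX hc) (r / 2) (by positivity)
  choose! C2 hC2X hC2c hC2 using h2
  -- all second level centres
  let S : Finset E := C.biUnion C2
  have hScard : S.card ≤ L * L := by
    calc S.card ≤ ∑ c ∈ C, (C2 c).card := Finset.card_biUnion_le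
      _ ≤ ∑ _c ∈ C, L := Finset.sum_le_sum (fun c hc => hC2c c hc)
      _ = C.card * L := by simp
      _ ≤ L * L := Nat.mul_le_mul_right _ hCc
  -- replace each centre by a nearby point of `Y`
  have h3 : ∀ s ∈ S, ∃ t : E, t ∈ Y ∧ ∀ z ∈ Y, z ∈ closedBall s (r / 2 / 2) → z ∈ closedBall t (r / 2) := by
    intro s _
    by_cases hne : ∃ t ∈ Y, t ∈ closedBall s (r / 2 / 2)
    · obtain ⟨t, htY, ht⟩ := hne
      refine ⟨t, htY, ?_⟩
      intro z _ hz
      rw [mem_closedBall] at *
      have := dist_triangle_right z t s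
      linarith
    · refine ⟨y, hy, ?_⟩
      intro z hz hzs
      exact absurd ⟨z, hz, hzs⟩ hne
  choose! t htY ht using h3
  refine ⟨S.image t, ?_, ?_, ?_⟩
  · intro u hu
    simp only [Finset.coe_image, mem_image, Finset.mem_coe] at hu
    obtain ⟨s, hs, rfl⟩ := hu
    exact htY s hs
  · exact (Finset.card_image_le).trans hScard
  · rintro z ⟨hzY, hzB⟩
    have hzX := hY hzY
    have h1 := hC ⟨hzX, hzB⟩
    simp only [mem_iUnion] at h1
    obtain ⟨c, hc, hzc⟩ := h1
    have h4 := hC2 c hc ⟨hzX, hzc⟩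
    simp only [mem_iUnion] at h4
    obtain ⟨c', hc', hzc'⟩ := h4
    have hs : c' ∈ S := Finset.mem_biUnion.2 ⟨c, hc, hc'⟩
    simp only [mem_iUnion]
    exact ⟨t c', Finset.mem_image_of_mem _ hs, ht c' hs z hzY hzc'⟩

end Finite

/-- Compactness: if all finite subsets of `X` embed in `ℝ^k` with distortion at most `D`, so does `X`. -/
lemma embeds_of_finite {E : Type*} [MetricSpace E] (X : Set E) (k : ℕ) (D : ℝ)
    (h : ∀ Y : Finset E, (Y : Set E) ⊆ X → EmbedsWith (Y : Set E) k D) : EmbedsWith X k D := by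
  classical
  rcases X.eq_empty_or_nonempty with rfl | ⟨x0, hx0⟩
  · exact ⟨1, fun _ => 0, one_pos, by simp⟩
  -- normalised maps
  let hat (Y : Finset E) : Finset E := insert x0 (Y.filter (· ∈ X))
  have hhat : ∀ Y, ((hat Y : Finset E) : Set E) ⊆ X := by
    intro Y z hz
    simp only [hat, Finset.coe_insert, Finset.coe_filter, mem_insert_iff, mem_ofPred_eq] at hz
    rcases hz with rfl | hz
    · exact hx0
    · exact hz.2
  have hem : ∀ Y : Finset E, ∃ g : E → EuclideanSpace ℝ (Fin k), g x0 = 0 ∧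
      ∀ x ∈ hat Y, ∀ y ∈ hat Y, dist x y ≤ dist (g x) (g y) ∧ dist (g x) (g y) ≤ D * dist x y := by
    intro Y
    obtain ⟨a, f, ha, hf⟩ := h (hat Y) (hhat Y)
    refine ⟨fun z => a⁻¹ • (f z - f x0), by simp, ?_⟩
    intro x hx y hy
    obtain ⟨h1, h2⟩ := hf x hx y hy
    have hd : dist (a⁻¹ • (f x - f x0)) (a⁻¹ • (f y - f x0)) = a⁻¹ * dist (f x) (f y) := by
      rw [dist_smul₀, Real.norm_of_nonneg (inv_nonneg.2 ha.le)]
      congr 1
      simp [dist_eq_norm]
    simp only [hd]
    constructor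
    · rw [le_inv_mul_iff₀ ha]; exact h1
    · rw [inv_mul_le_iff₀ ha]; nlinarith
  choose g hg0 hg using hem
  -- ultrafilter on finite sets
  let u : Ultrafilter (Finset E) := Ultrafilter.of Filter.atTop
  have hu : (u : Filter (Finset E)) ≤ Filter.atTop := Ultrafilter.of_le _
  have hev : ∀ z ∈ X, ∀ᶠ Y in (u : Filter (Finset E)), z ∈ hat Y := by
    intro z hz
    apply hu
    filter_upwards [Filter.eventually_ge_atTop ({z} : Finset E)] with Y hY
    simp only [hat, Finset.mem_insert, Finset.mem_filter]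
    exact Or.inr ⟨hY (Finset.mem_singleton_self z), hz⟩
  have hlim : ∀ z ∈ X, ∃ w : EuclideanSpace ℝ (Fin k),
      Filter.Tendsto (fun Y => g Y z) (u : Filter (Finset E)) (nhds w) := by
    intro z hz
    have hc : IsCompact (closedBall (0 : EuclideanSpace ℝ (Fin k)) (D * dist z x0)) :=
      isCompact_closedBall _ _
    have hle : ((u.map (fun Y => g Y z) : Ultrafilter _) : Filter _) ≤
        Filter.principal (closedBall (0 : EuclideanSpace ℝ (Fin k)) (D * dist z x0)) := by
      rw [Filter.le_principal_iff]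
      show (fun Y => g Y z) ⁻¹' _ ∈ (u : Filter (Finset E))
      filter_upwards [hev z hz] with Y hY
      have hx0' : x0 ∈ hat Y := Finset.mem_insert_self _ _
      have := (hg Y z hY x0 hx0').2
      rw [hg0 Y] at this
      simpa [mem_closedBall] using this
    obtain ⟨w, _, hw⟩ := hc.ultrafilter_le_nhds _ hle
    exact ⟨w, hw⟩
  choose! h' hh' using hlim
  refine ⟨1, h', one_pos, ?_⟩
  intro x hx y hy
  have ht : Filter.Tendsto (fun Y => dist (g Y x) (g Y y)) (u : Filter (Finset E))
      (nhds (dist (h' x) (h' y))) := (hh' x hx).dist (hh' y hy)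
  have hb : ∀ᶠ Y in (u : Filter (Finset E)),
      dist x y ≤ dist (g Y x) (g Y y) ∧ dist (g Y x) (g Y y) ≤ D * dist x y := by
    filter_upwards [hev x hx, hev y hy] with Y h1 h2
    exact hg Y x h1 y h2
  constructor
  · rw [one_mul]
    exact ge_of_tendsto ht (hb.mono fun _ h => h.1)
  · rw [mul_one]
    exact le_of_tendsto ht (hb.mono fun _ h => h.2)

section Glue

variable {E : Type*} [NormedAddCommGroup E] [NormedSpace ℝ E]

/-- Positions of the pieces. -/
def pos (n : ℕ) : ℝ := 10 * 4 ^ n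

lemma pos_pos (n : ℕ) : 0 < pos n := by unfold pos; positivity

lemma pos_mono {m n : ℕ} (h : m ≤ n) : pos m ≤ pos n := by
  unfold pos
  have : (4 : ℝ) ^ m ≤ 4 ^ n := pow_le_pow_right₀ (by norm_num) h
  linarith

lemma pos_succ (n : ℕ) : pos (n + 1) = 4 * pos n := by unfold pos; ring

lemma pos_gap {m n : ℕ} (h : m < n) : 3 / 4 * pos n ≤ pos n - pos m ∧ 30 ≤ pos n - pos m := by
  obtain ⟨k, rfl⟩ : ∃ k, n = m + k + 1 := ⟨n - m - 1, by omega⟩
  have h1 : pos (m + 1) ≤ pos (m + k + 1) := pos_mono (by omega)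
  have h2 : pos (m + 1) = 4 * pos m := pos_succ m
  have h3 : (1 : ℝ) ≤ 4 ^ m := one_le_pow₀ (by norm_num)
  have h4 : 10 ≤ pos m := by unfold pos; linarith
  constructor <;> nlinarith

/-- The similarity placing the `n`-th piece. -/
noncomputable def phi (e : E) (s : ℕ → ℝ) (n : ℕ) (y : E) : E := pos n • e + s n • y

lemma dist_phi (e : E) (s : ℕ → ℝ) (hs : ∀ n, 0 < s n) (n : ℕ) (y y' : E) :
    dist (phi e s n y) (phi e s n y') = s n * dist y y' := by
  unfold phi
  rw [dist_add_left, dist_smul₀, Real.norm_of_nonneg (hs n).le]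

variable (e : E) (he : ‖e‖ = 1) (Y : ℕ → Finset E) (s : ℕ → ℝ) (hs : ∀ n, 0 < s n)
  (hs1 : ∀ n, ∀ y ∈ Y n, s n * ‖y‖ ≤ 1)

/-- The `n`-th piece. -/
def piece (e : E) (Y : ℕ → Finset E) (s : ℕ → ℝ) (n : ℕ) : Set E := phi e s n '' (Y n : Set E)

include hs1 hs in
lemma piece_near {n : ℕ} {x : E} (hx : x ∈ piece e Y s n) : dist x (pos n • e) ≤ 1 := by
  obtain ⟨y, hy, rfl⟩ := hx
  unfold phi
  rw [dist_eq_norm, add_sub_cancel_left, norm_smul, Real.norm_of_nonneg (hs n).le]
  exact hs1 n y hy

include he in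
lemma dist_pos' (m n : ℕ) : dist (pos m • e) (pos n • e) = |pos m - pos n| := by
  rw [dist_eq_norm, ← sub_smul, norm_smul, he, mul_one, Real.norm_eq_abs]

include he hs1 hs in
lemma piece_dist_le {m n : ℕ} {x y : E} (hx : x ∈ piece e Y s m) (hy : y ∈ piece e Y s n) :
    dist x y ≤ |pos m - pos n| + 2 := by
  have h1 := piece_near e Y s hs hs1 hx
  have h2 := piece_near e Y s hs hs1 hy
  have h3 := dist_pos' e he m n
  have h4 : dist x y ≤ dist x (pos m • e) + dist (pos m • e) (pos n • e) + dist (pos n • e) y :=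
    dist_triangle4 _ _ _ _
  rw [dist_comm (pos n • e) y] at h4
  linarith

include he hs1 hs in
lemma piece_dist_ge {m n : ℕ} {x y : E} (hx : x ∈ piece e Y s m) (hy : y ∈ piece e Y s n) :
    |pos m - pos n| - 2 ≤ dist x y := by
  have h1 := piece_near e Y s hs hs1 hx
  have h2 := piece_near e Y s hs hs1 hy
  have h3 := dist_pos' e he m n
  have h4 : dist (pos m • e) (pos n • e) ≤ dist (pos m • e) x + dist x y + dist y (pos n • e) :=
    dist_triangle4 _ _ _ _
  rw [dist_comm (pos m • e) x] at h4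
  linarith

lemma abs_pos_sub_ge {m n : ℕ} (h : m ≠ n) :
    3 / 4 * max (pos m) (pos n) ≤ |pos m - pos n| ∧ 30 ≤ |pos m - pos n| := by
  rcases lt_or_gt_of_ne h with h | h
  · obtain ⟨h1, h2⟩ := pos_gap h
    rw [abs_sub_comm, abs_of_nonneg (by linarith), max_eq_right (pos_mono h.le)]
    exact ⟨h1, h2⟩
  · obtain ⟨h1, h2⟩ := pos_gap h
    rw [abs_of_nonneg (by linarith), max_eq_left (pos_mono h.le)]
    exact ⟨h1, h2⟩

include hs in
/-- Doubling is preserved by the similarity. -/
lemma piece_doubling {L : ℕ} {n : ℕ} (hL : DoublingWith (Y n : Set E) L) :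
    DoublingWith (piece e Y s n) L := by
  classical
  rintro _ ⟨y, hy, rfl⟩ r hr
  obtain ⟨C, hCX, hCc, hC⟩ := hL y hy (r / s n) (div_pos hr (hs n))
  refine ⟨C.image (phi e s n), ?_, Finset.card_image_le.trans hCc, ?_⟩
  · intro z hz
    simp only [Finset.coe_image, mem_image, Finset.mem_coe] at hz
    obtain ⟨c, hc, rfl⟩ := hz
    exact ⟨c, hCX hc, rfl⟩
  · rintro _ ⟨⟨w, hw, rfl⟩, hwr⟩
    have hsn := hs n
    have hw' : w ∈ (Y n : Set E) ∩ closedBall y (r / s n) := by
      refine ⟨hw, ?_⟩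
      rw [mem_closedBall, dist_phi e s hs] at hwr
      rw [mem_closedBall, le_div_iff₀ hsn]
      linarith
    have := hC hw'
    simp only [mem_iUnion] at this ⊢
    obtain ⟨c, hc, hwc⟩ := this
    refine ⟨phi e s n c, Finset.mem_image_of_mem _ hc, ?_⟩
    rw [mem_closedBall, dist_phi e s hs]
    rw [mem_closedBall] at hwc
    have : s n * dist w c ≤ s n * (r / s n / 2) := mul_le_mul_of_nonneg_left hwc hsn.le
    have h5 : s n * (r / s n / 2) = r / 2 := by field_simp
    linarith

include he hs1 hs in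
/-- The union of pieces is doubling. -/
lemma union_doubling {L : ℕ} (hL : ∀ n, DoublingWith (Y n : Set E) L) :
    DoublingWith (⋃ n, piece e Y s n) (L + 4) := by
  classical
  intro x hx r hr
  simp only [mem_iUnion] at hx
  obtain ⟨m, hxm⟩ := hx
  by_cases hr16 : r ≤ 16
  · -- small radius: only one piece
    obtain ⟨C, hCX, hCc, hC⟩ := piece_doubling e Y s hs (hL m) x hxm r hr
    refine ⟨C, fun z hz => mem_iUnion.2 ⟨m, hCX hz⟩, by omega, ?_⟩
    rintro z ⟨hz, hzr⟩
    simp only [mem_iUnion] at hz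
    obtain ⟨n, hzn⟩ := hz
    have hmn : n = m := by
      by_contra hne
      have h1 := piece_dist_ge e he Y s hs hs1 hzn hxm
      have h2 := (abs_pos_sub_ge hne).2
      rw [mem_closedBall] at hzr
      linarith
    subst hmn
    exact hC ⟨hzn, hzr⟩
  · -- large radius: at most four balls
    push Not at hr16
    have hex : ∃ N, 2 * r < pos (N + 1) := by
      obtain ⟨N, hN⟩ := exists_nat_gt (2 * r)
      refine ⟨N, hN.trans ?_⟩
      have h1 : (N : ℝ) < 4 ^ (N + 1) := by
        have := Nat.lt_pow_self (n := N + 1) (a := 4) (by norm_num)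
        have h2 : ((N + 1 : ℕ) : ℝ) < ((4 ^ (N + 1) : ℕ) : ℝ) := by exact_mod_cast this
        push_cast at h2
        linarith
      unfold pos
      nlinarith
    let N := Nat.find hex
    have hN : 2 * r < pos (N + 1) := Nat.find_spec hex
    have hNmax : ∀ n, pos n ≤ 2 * r → n ≤ N := by
      intro n hn
      by_contra hlt
      push Not at hlt
      have := pos_mono (show N + 1 ≤ n by omega)
      linarith
    have hNle : pos N ≤ 2 * r := by
      by_cases hN0 : N = 0
      · rw [hN0]; unfold pos; norm_num; linarith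
      · have : ¬ (2 * r < pos (N - 1 + 1)) := Nat.find_min hex (by omega)
        have h2 : N - 1 + 1 = N := by omega
        rw [h2] at this
        linarith
    let pick : ℕ → E := fun n => if h : (piece e Y s n).Nonempty then h.some else x
    have hxX : x ∈ ⋃ n, piece e Y s n := mem_iUnion.2 ⟨m, hxm⟩
    have hpick : ∀ n, pick n ∈ ⋃ n, piece e Y s n := by
      intro n
      by_cases h : (piece e Y s n).Nonempty
      · simp only [pick, dif_pos h]
        exact mem_iUnion.2 ⟨n, h.some_mem⟩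
      · simp only [pick, dif_neg h]
        exact hxX
    have hpick' : ∀ n z, z ∈ piece e Y s n → pick n ∈ piece e Y s n := by
      intro n z hz
      have h : (piece e Y s n).Nonempty := ⟨z, hz⟩
      simp only [pick, dif_pos h]
      exact h.some_mem
    let lowc : E := if h : ∃ n, pos n ≤ r / 8 ∧ (piece e Y s n).Nonempty then pick h.choose else x
    have hlowc : lowc ∈ ⋃ n, piece e Y s n := by
      by_cases h : ∃ n, pos n ≤ r / 8 ∧ (piece e Y s n).Nonempty
      · simp only [lowc, dif_pos h]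
        exact hpick _
      · simp only [lowc, dif_neg h]
        exact hxX
    refine ⟨{x, pick N, pick (N - 1), lowc}, ?_, ?_, ?_⟩
    · intro z hz
      simp only [Finset.coe_insert, Finset.coe_singleton, mem_insert_iff, mem_singleton_iff] at hz
      rcases hz with rfl | rfl | rfl | rfl
      · exact hxX
      · exact hpick _
      · exact hpick _
      · exact hlowc
    · exact Finset.card_le_four.trans (by omega)
    · rintro z ⟨hz, hzr⟩
      simp only [mem_iUnion] at hz
      obtain ⟨n, hzn⟩ := hz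
      rw [mem_closedBall] at hzr
      have hnear : ∀ c, c ∈ piece e Y s n → z ∈ closedBall c (r / 2) := by
        intro c hc
        rw [mem_closedBall]
        have := piece_dist_le e he Y s hs hs1 hzn hc
        simp only [sub_self, abs_zero] at this
        linarith
      simp only [Finset.mem_insert, Finset.mem_singleton, mem_iUnion, exists_prop]
      by_cases hnm : n = m
      · subst hnm
        exact ⟨x, Or.inl rfl, hnear x hxm⟩
      · have h1 := piece_dist_ge e he Y s hs hs1 hzn hxm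
        have h2 := (abs_pos_sub_ge hnm).1
        have h3 : pos n ≤ 2 * r := by
          have : pos n ≤ max (pos n) (pos m) := le_max_left _ _
          linarith
        have h4 := hNmax n h3
        by_cases hnN : n = N
        · exact ⟨pick N, Or.inr (Or.inl rfl), hnear _ (by rw [← hnN]; exact hpick' n z hzn)⟩
        by_cases hnN1 : n = N - 1
        · rw [← hnN1]
          exact ⟨pick n, Or.inr (Or.inr (Or.inl rfl)), hnear _ (hpick' n z hzn)⟩
        -- low pieces
        have hlow : pos n ≤ r / 8 := by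
          have h5 : n + 2 ≤ N := by omega
          have h6 : pos (n + 2) ≤ pos N := pos_mono h5
          have h7 : pos (n + 2) = 16 * pos n := by
            rw [pos_succ, pos_succ]; ring
          linarith
        have hexl : ∃ n, pos n ≤ r / 8 ∧ (piece e Y s n).Nonempty := ⟨n, hlow, z, hzn⟩
        refine ⟨lowc, Or.inr (Or.inr (Or.inr rfl)), ?_⟩
        simp only [lowc, dif_pos hexl]
        obtain ⟨h8, w, hw⟩ := hexl.choose_spec
        have hpk := hpick' _ w hw
        rw [mem_closedBall]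
        have h9 := piece_dist_le e he Y s hs hs1 hzn hpk
        have h10 : |pos n - pos hexl.choose| ≤ r / 8 := by
          rw [abs_le]
          have := pos_pos n
          have := pos_pos hexl.choose
          constructor <;> linarith
        linarith

end Glue

/-- Gluing: if every doubling subset of `E` embeds, then the finite uniform statement holds. -/
lemma finite_uniform_of_all {E : Type*} [NormedAddCommGroup E] [NormedSpace ℝ E] (e : E) (he : ‖e‖ = 1)
    (hA : ∀ X : Set E, (∃ L, DoublingWith X L) → ∃ (k : ℕ) (D : ℝ), EmbedsWith X k D) (L : ℕ) :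
    ∃ (k : ℕ) (D : ℝ), ∀ Y : Finset E, DoublingWith (Y : Set E) L → EmbedsWith (Y : Set E) k D := by
  classical
  by_contra hcon
  push Not at hcon
  choose Y0 hY0 hY1 using hcon
  let Y : ℕ → Finset E := fun n => Y0 (Nat.unpair n).1 ((Nat.unpair n).2 : ℝ)
  let s : ℕ → ℝ := fun n => 1 / (1 + ∑ y ∈ Y n, ‖y‖)
  have hden : ∀ n, 0 < 1 + ∑ y ∈ Y n, ‖y‖ := by
    intro n
    have : 0 ≤ ∑ y ∈ Y n, ‖y‖ := Finset.sum_nonneg (fun _ _ => norm_nonneg _)
    linarith
  have hs : ∀ n, 0 < s n := fun n => one_div_pos.2 (hden n)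
  have hs1 : ∀ n, ∀ y ∈ Y n, s n * ‖y‖ ≤ 1 := by
    intro n y hy
    have h1 : ‖y‖ ≤ ∑ y ∈ Y n, ‖y‖ := Finset.single_le_sum (f := fun y => ‖y‖) (fun _ _ => norm_nonneg _) hy
    simp only [s]
    rw [one_div, inv_mul_le_iff₀ (hden n)]
    linarith
  have hdbl : DoublingWith (⋃ n, piece e Y s n) (L + 4) :=
    union_doubling e he Y s hs hs1 (fun n => hY0 _ _)
  obtain ⟨k, D, a, f, ha, hf⟩ := hA _ ⟨_, hdbl⟩
  let M : ℕ := ⌈D⌉₊
  let n : ℕ := Nat.pair k M
  have hYn : Y n = Y0 k (M : ℝ) := by
    simp only [Y, n, Nat.unpair_pair]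
  apply hY1 k (M : ℝ)
  rw [← hYn]
  refine ⟨a * s n, fun y => f (phi e s n y), mul_pos ha (hs n), ?_⟩
  intro y hy y' hy'
  have hpy : phi e s n y ∈ ⋃ n, piece e Y s n := mem_iUnion.2 ⟨n, y, hy, rfl⟩
  have hpy' : phi e s n y' ∈ ⋃ n, piece e Y s n := mem_iUnion.2 ⟨n, y', hy', rfl⟩
  obtain ⟨h1, h2⟩ := hf _ hpy _ hpy'
  rw [dist_phi e s hs] at h1 h2
  have hsn := hs n
  have hD : D ≤ M := Nat.le_ceil D
  have hd0 : 0 ≤ a * (s n * dist y y') := by positivity
  constructor
  · linarith [h1, mul_assoc a (s n) (dist y y')]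
  · have : D * a * (s n * dist y y') ≤ (M : ℝ) * a * (s n * dist y y') := by
      have h3 : D * (a * (s n * dist y y')) ≤ (M : ℝ) * (a * (s n * dist y y')) :=
        mul_le_mul_of_nonneg_right hD hd0
      linarith [mul_assoc D a (s n * dist y y'), mul_assoc (M : ℝ) a (s n * dist y y')]
    calc dist (f (phi e s n y)) (f (phi e s n y')) ≤ D * a * (s n * dist y y') := h2
      _ ≤ (M : ℝ) * a * (s n * dist y y') := this
      _ = (M : ℝ) * (a * s n) * dist y y' := by ring


/-- `Q1` in a metric space `E`: every doubling subset embeds in some `ℝ^k` with some finite distortion. -/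
def AllDoublingEmbed (E : Type*) [PseudoMetricSpace E] : Prop :=
  ∀ X : Set E, (∃ L, DoublingWith X L) → ∃ (k : ℕ) (D : ℝ), EmbedsWith X k D

/-- Uniform form: for each doubling constant `L` there are `k, D` serving all subsets of constant at
most `L`. -/
def UniformEmbed (E : Type*) [PseudoMetricSpace E] : Prop :=
  ∀ L : ℕ, ∃ (k : ℕ) (D : ℝ), ∀ X : Set E, DoublingWith X L → EmbedsWith X k D

/-- Finite form: for each doubling constant `L` there are `k, D` serving all finite subsets of constant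
at most `L`. -/
def FiniteUniformEmbed (E : Type*) [PseudoMetricSpace E] : Prop :=
  ∀ L : ℕ, ∃ (k : ℕ) (D : ℝ), ∀ Y : Finset E, DoublingWith (Y : Set E) L → EmbedsWith (Y : Set E) k D

/-- For `E = ℓ₂` the question `Q1`, its stronger uniform form and its finite uniform form are all
equivalent. -/
theorem result :
    (AllDoublingEmbed Ell2 ↔ UniformEmbed Ell2) ∧ (AllDoublingEmbed Ell2 ↔ FiniteUniformEmbed Ell2) := by
  have hunit : ∃ e : Ell2, ‖e‖ = 1 := by
    refine ⟨lp.single 2 0 (1 : ℝ), ?_⟩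
    rw [lp.norm_single (by norm_num)]
    simp
  obtain ⟨e, he⟩ := hunit
  have hAF : AllDoublingEmbed Ell2 → FiniteUniformEmbed Ell2 :=
    fun hA L => finite_uniform_of_all e he hA L
  have hFU : FiniteUniformEmbed Ell2 → UniformEmbed Ell2 := by
    intro hF L
    obtain ⟨k, D, hkD⟩ := hF (L * L)
    refine ⟨k, D, fun X hX => embeds_of_finite X k D fun Y hY => hkD Y (hX.subset hY)⟩
  have hUA : UniformEmbed Ell2 → AllDoublingEmbed Ell2 := by
    rintro hU X ⟨L, hL⟩
    obtain ⟨k, D, hkD⟩ := hU L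
    exact ⟨k, D, hkD X hL⟩
  exact ⟨⟨fun h => hFU (hAF h), hUA⟩, ⟨hAF, fun h => hUA (hFU h)⟩⟩

end Vale.Agent.Results.P208.A_finite_uniform
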